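import Vale.Agent.P088.R2.H205.C.SpecR
import Vale.Agent.P088.R2.H644.W.Flat

/-!
# P088, stage 3, region I: the star density of the flat slots is `st`
-/

open Set Filter
open scoped ContDiff Topology

noncomputable section

namespace Vale.Agent.P088.R2.H349.ZI

open Vale.Agent.P088.LR Vale.Agent.P088.HY
open Vale.Agent.P088.R2.H644 Vale.Agent.P088.R2.H961.GW
open Vale.Agent.P088.R2.H205.CP

variable {n : ℕ}

theorem fx_lx (W : VV n → ℝ) : (Ch.fx n).Λ W = lx W := funext fun z => Ch.fx_Λ W z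

theorem fy_ly (W : VV n → ℝ) : (Ch.fy n).Λ W = ly W := funext fun z => Ch.fy_Λ W z

/-- **The star density in the flat frame.** -/
theorem sta_st {W : VV n → ℝ} (hW : ContDiff ℝ ∞ W) (f g : VV n → ℝ) (z : VV n) :
    H551.E.sta (Ch.fx n) (Ch.fy n) 0 0 W f g z = st W (Uu W f z) (Uv W g z) (f z) (g z) z := by
  have e1 : Ch.XX (Ch.fx n) W f z = Uu W f z := funext fun i => Ch.fx_XX W f z i
  have e2 : Ch.XX (Ch.fy n) W g z = Uv W g z := funext fun i => Ch.fy_XX W g z i
  have g1 : (Ch.fx n).Γ W 0 z = 0 := by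
    rw [Ch.fx_Γ]
    refine Finset.sum_eq_zero fun i _ => ?_
    have : dx i (0 : VV n → ℝ) z = 0 := by
      unfold HY.dx
      rw [show (0 : VV n → ℝ) = fun _ => (0 : ℝ) from rfl]
      simp
    rw [this, mul_zero]
  have g2 : (Ch.fy n).Γ W 0 z = 0 := by
    rw [Ch.fy_Γ]
    refine Finset.sum_eq_zero fun i _ => ?_
    have : dy i (0 : VV n → ℝ) z = 0 := by
      unfold HY.dy
      rw [show (0 : VV n → ℝ) = fun _ => (0 : ℝ) from rfl]
      simp
    rw [this, mul_zero]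
  unfold H551.E.sta st q0
  rw [e1, e2, Ch.f_TH_hs hW]
  unfold H960.W.qs
  rw [Ch.fx_G2 isOpen_univ hW.contDiffOn (mem_univ z), Ch.fy_G2 isOpen_univ hW.contDiffOn
    (mem_univ z), Ch.f_M2, g1, g2]
  simp only [Ch.fx_X1, Ch.fy_X1, fx_lx, fy_ly]
  have k1 : ∀ i, f z * dx i W z - dx i f z = Uu W f z i := fun i => rfl
  have k2 : ∀ i, g z * dy i W z - dy i g z = Uv W g z i := fun i => rfl
  simp only [k1, k2]
  ring

end Vale.Agent.P088.R2.H349.ZI
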